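import Mathlib

namespace Vale.Agent.P166

variable {N : ℕ}

structure Nice (G : (Fin N → ℝ) → ℝ) (C c : ℝ) : Prop where
  conv : ∀ (lam lam' : Fin N → ℝ) (a b : ℝ), 0 ≤ a → 0 ≤ b → a + b = 1 →
    G (a • lam + b • lam') ≤ a * G lam + b * G lam'
  symm : ∀ (lam : Fin N → ℝ) (i j : Fin N), G (lam ∘ Equiv.swap i j) = G lam
  incr : ∀ (lam : Fin N → ℝ) (η : ℝ), 0 ≤ η → ∀ J : Finset (Fin N),
    ∑ j ∈ J, (G (Function.update lam j (lam j + η)) - G lam) ≤ C * η * Real.exp (c * η)
  mono : ∀ (lam lam' : Fin N → ℝ), (∀ i, lam i ≤ lam' i) → G lam ≤ G lam'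
  shift : ∀ (lam : Fin N → ℝ) (t : ℝ), G (fun i => lam i + t) = G lam + C * t

lemma le_of_forall_exp {X K c : ℝ} (h : ∀ η : ℝ, 0 < η → X ≤ K * Real.exp (c * η)) : X ≤ K := by
  have h1 : Filter.Tendsto (fun η : ℝ => K * Real.exp (c * η)) (nhdsWithin 0 (Set.Ioi 0))
      (nhds K) := by
    have : Continuous (fun η : ℝ => K * Real.exp (c * η)) := by fun_prop
    have h2 := this.tendsto 0
    simp only [mul_zero, Real.exp_zero, mul_one] at h2
    exact h2.mono_left nhdsWithin_le_nhds
  refine ge_of_tendsto h1 ?_
  filter_upwards [self_mem_nhdsWithin] with η hη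
  exact h η hη

variable {G : (Fin N → ℝ) → ℝ} {C c : ℝ}

lemma stepA (hG : Nice G C c) (lam : Fin N → ℝ) (i : Fin N) {a b η : ℝ} (hab : a ≤ b)
    (hη : 0 < η) :
    G (Function.update lam i b) - G (Function.update lam i a) ≤
      ((b - a) / η) * (G (Function.update lam i (b + η)) - G (Function.update lam i b)) := by
  have hden : 0 < b - a + η := by linarith
  have hcombo : Function.update lam i b =
      (η / (b - a + η)) • Function.update lam i a +
      ((b - a) / (b - a + η)) • Function.update lam i (b + η) := by
    funext k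
    by_cases hk : k = i
    · subst hk
      simp only [Function.update_self, Pi.add_apply, Pi.smul_apply, smul_eq_mul]
      field_simp
      ring
    · simp only [Function.update_of_ne hk, Pi.add_apply, Pi.smul_apply, smul_eq_mul]
      field_simp
      ring
  have h1 := hG.conv (Function.update lam i a) (Function.update lam i (b + η))
    (η / (b - a + η)) ((b - a) / (b - a + η)) (by positivity)
    (div_nonneg (by linarith) hden.le) (by field_simp; ring)
  rw [← hcombo] at h1
  set g0 := G (Function.update lam i a)
  set g1 := G (Function.update lam i b)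
  set g2 := G (Function.update lam i (b + η))
  have h2 : (b - a + η) * g1 ≤ η * g0 + (b - a) * g2 := by
    have := mul_le_mul_of_nonneg_left h1 hden.le
    have e : (b - a + η) * (η / (b - a + η) * g0 + (b - a) / (b - a + η) * g2) =
        η * g0 + (b - a) * g2 := by
      field_simp
    rwa [e] at this
  rw [div_mul_eq_mul_div, le_div_iff₀ hη]
  nlinarith

lemma stepB (hG : Nice G C c) (L : Fin N → ℝ) {i j : Fin N} (hij : i ≠ j) (hle : L i ≤ L j)
    {η : ℝ} (hη : 0 < η) :
    G (Function.update L i (L i + η)) ≤ G (Function.update L j (L j + η)) := by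
  have hden : 0 < L j + η - L i := by linarith
  set A := Function.update L j (L j + η) with hA
  have hcombo : Function.update L i (L i + η) =
      ((L j - L i) / (L j + η - L i)) • A + (η / (L j + η - L i)) • (A ∘ Equiv.swap i j) := by
    funext k
    by_cases hk : k = i
    · subst hk
      simp only [Function.update_self, Pi.add_apply, Pi.smul_apply, smul_eq_mul,
        Function.comp_apply, Equiv.swap_apply_left, hA, Function.update_of_ne hij]
      field_simp
      ring
    · by_cases hk2 : k = j
      · subst hk2
        simp only [Function.update_self, Pi.add_apply, Pi.smul_apply, smul_eq_mul,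
          Function.comp_apply, Equiv.swap_apply_right, hA, Function.update_of_ne hij,
          Function.update_of_ne hk]
        field_simp
        ring
      · simp only [Pi.add_apply, Pi.smul_apply, smul_eq_mul,
          Function.comp_apply, Equiv.swap_apply_of_ne_of_ne hk hk2, hA,
          Function.update_of_ne hk, Function.update_of_ne hk2]
        field_simp
        ring
  have h1 := hG.conv A (A ∘ Equiv.swap i j) ((L j - L i) / (L j + η - L i))
    (η / (L j + η - L i)) (div_nonneg (by linarith) hden.le) (by positivity)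
    (by field_simp; ring)
  rw [← hcombo, hG.symm] at h1
  have e : (L j - L i) / (L j + η - L i) * G A + η / (L j + η - L i) * G A = G A := by
    field_simp
    ring
  rwa [e] at h1

theorem T1 (hG : Nice G C c) (lam : Fin N → ℝ) (i : Fin N) (M : Finset (Fin N))
    (hiM : i ∉ M) {a b : ℝ} (hab : a ≤ b) (hM : ∀ j ∈ M, b ≤ lam j) :
    G (Function.update lam i b) - G (Function.update lam i a) ≤
      C * (b - a) / ((M.card : ℝ) + 1) := by
  refine le_of_forall_exp (c := c) ?_
  intro η hη
  set L := Function.update lam i b with hL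
  have hLi : L i = b := by rw [hL]; simp
  have hLj : ∀ j ∈ M, L j = lam j := by
    intro j hj
    rw [hL]
    have hne : j ≠ i := by
      rintro rfl
      exact hiM hj
    exact Function.update_of_ne hne _ _
  have hA2 : Function.update lam i (b + η) = Function.update L i (L i + η) := by
    rw [hLi, hL, Function.update_idem]
  have hsum := hG.incr L η hη.le (insert i M)
  rw [Finset.sum_insert hiM] at hsum
  have hB : ∀ j ∈ M, G (Function.update L i (L i + η)) - G L ≤
      G (Function.update L j (L j + η)) - G L := by
    intro j hj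
    have hne : i ≠ j := by
      rintro rfl
      exact hiM hj
    have := stepB hG L hne (by rw [hLi, hLj j hj]; exact hM j hj) hη
    linarith
  have hsum2 : (M.card : ℝ) * (G (Function.update L i (L i + η)) - G L) ≤
      ∑ j ∈ M, (G (Function.update L j (L j + η)) - G L) := by
    have := Finset.sum_le_sum hB
    rwa [Finset.sum_const, nsmul_eq_mul] at this
  have hkey : ((M.card : ℝ) + 1) * (G (Function.update L i (L i + η)) - G L) ≤
      C * η * Real.exp (c * η) := by linarith
  have hA := stepA hG lam i hab hη
  rw [hA2] at hA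
  have hpos : (0 : ℝ) < (M.card : ℝ) + 1 := by positivity
  have hkey2 : G (Function.update L i (L i + η)) - G L ≤
      C * η * Real.exp (c * η) / ((M.card : ℝ) + 1) := by
    rw [le_div_iff₀ hpos]
    linarith
  have hcoef : 0 ≤ (b - a) / η := div_nonneg (by linarith) hη.le
  calc G L - G (Function.update lam i a)
      ≤ (b - a) / η * (G (Function.update L i (L i + η)) - G L) := hA
    _ ≤ (b - a) / η * (C * η * Real.exp (c * η) / ((M.card : ℝ) + 1)) :=
        mul_le_mul_of_nonneg_left hkey2 hcoef
    _ = C * (b - a) / ((M.card : ℝ) + 1) * Real.exp (c * η) := by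
        field_simp

def setK (K : Finset (Fin N)) (v : ℝ) (lam : Fin N → ℝ) : Fin N → ℝ :=
  fun i => if i ∈ K then v else lam i

lemma setK_insert (K : Finset (Fin N)) (k : Fin N) (v : ℝ) (lam : Fin N → ℝ) :
    setK (insert k K) v lam = Function.update (setK K v lam) k v := by
  funext i
  by_cases hi : i = k
  · subst hi
    simp [setK]
  · simp [setK, hi]

lemma update_setK (K : Finset (Fin N)) (k : Fin N) (hk : k ∉ K) (v w : ℝ) (lam : Fin N → ℝ) :
    Function.update (setK K v lam) k w = setK K v (Function.update lam k w) := by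
  funext i
  by_cases hi : i = k
  · subst hi
    simp [setK, hk]
  · simp [setK, hi]

theorem T2 (hG : Nice G C c) (M : Finset (Fin N)) {a b : ℝ} (hab : a ≤ b)
    (K : Finset (Fin N)) :
    Disjoint K M → ∀ lam : Fin N → ℝ, (∀ j ∈ M, b ≤ lam j) →
    G (setK K b lam) - G (setK K a lam) ≤ (K.card : ℝ) * (C * (b - a) / ((M.card : ℝ) + 1)) := by
  induction K using Finset.induction_on with
  | empty =>
    intro _ lam _
    have e : ∀ v : ℝ, setK (∅ : Finset (Fin N)) v lam = lam := by
      intro v
      funext i
      simp [setK]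
    rw [e, e]
    simp
  | insert k K hk ih =>
    intro hdisj lam hM
    rw [Finset.disjoint_insert_left] at hdisj
    have hkM := hdisj.1
    rw [setK_insert, setK_insert, Finset.card_insert_of_notMem hk]
    have h1 := T1 hG (setK K b lam) k M hkM hab (by
      intro j hj
      have hjK : j ∉ K := fun h => (Finset.disjoint_left.mp hdisj.2) h hj
      simp only [setK, hjK, if_false]
      exact hM j hj)
    have h2 := ih hdisj.2 (Function.update lam k a) (by
      intro j hj
      have hne : j ≠ k := by
        rintro rfl
        exact hkM hj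
      rw [Function.update_of_ne hne]
      exact hM j hj)
    rw [← update_setK K k hk, ← update_setK K k hk] at h2
    push_cast
    linarith

theorem T3 (hG : Nice G C c) (hC : 0 ≤ C) (K M : Finset (Fin N)) (hKM : Disjoint K M)
    {a b δ : ℝ} (hab : a ≤ b) (hδ : 0 ≤ δ) (lam lam' : Fin N → ℝ)
    (h1 : ∀ i, a ≤ lam i ∧ lam i ≤ b) (h2 : ∀ i, a ≤ lam' i ∧ lam' i ≤ b)
    (h3 : ∀ i, i ∉ K → |lam i - lam' i| ≤ δ) (h4 : ∀ j ∈ M, b - δ ≤ lam j) :
    |G lam - G lam'| ≤ C * (3 * δ + (b - a) * (K.card : ℝ) / ((M.card : ℝ) + 1)) := by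
  have hpos : (0 : ℝ) < (M.card : ℝ) + 1 := by positivity
  have hup : ∀ x : Fin N → ℝ, (∀ i, a ≤ x i ∧ x i ≤ b) → (∀ i, i ∉ K → |lam i - x i| ≤ δ) →
      G x ≤ G (setK K (b - δ) lam) + C * (2 * δ) := by
    intro x hx1 hx2
    rw [← hG.shift]
    refine hG.mono _ _ ?_
    intro i
    by_cases hi : i ∈ K
    · simp only [setK, hi, if_true]
      have := (hx1 i).2
      linarith
    · simp only [setK, hi, if_false]
      have := abs_le.mp (hx2 i hi)
      linarith [this.1]
  have hlow : ∀ x : Fin N → ℝ, (∀ i, a ≤ x i ∧ x i ≤ b) → (∀ i, i ∉ K → |lam i - x i| ≤ δ) →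
      G (setK K a lam) - C * δ ≤ G x := by
    intro x hx1 hx2
    have : G (setK K a lam) - C * δ = G (fun i => setK K a lam i + (-δ)) := by
      rw [hG.shift]; ring
    rw [this]
    refine hG.mono _ _ ?_
    intro i
    by_cases hi : i ∈ K
    · simp only [setK, hi, if_true]
      have := (hx1 i).1
      linarith
    · simp only [setK, hi, if_false]
      have := abs_le.mp (hx2 i hi)
      linarith [this.2]
  have hmid : G (setK K (b - δ) lam) - G (setK K a lam) ≤
      C * ((b - a) * (K.card : ℝ) / ((M.card : ℝ) + 1)) := by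
    have hnn : 0 ≤ C * ((b - a) * (K.card : ℝ) / ((M.card : ℝ) + 1)) := by
      have : 0 ≤ b - a := by linarith
      positivity
    by_cases hcase : a ≤ b - δ
    · have := T2 hG M hcase K hKM lam h4
      refine le_trans this ?_
      have e1 : (K.card : ℝ) * (C * (b - δ - a) / ((M.card : ℝ) + 1)) =
          C * ((b - δ - a) * (K.card : ℝ) / ((M.card : ℝ) + 1)) := by ring
      rw [e1]
      refine mul_le_mul_of_nonneg_left ?_ hC
      gcongr
      linarith
    · push Not at hcase
      have : G (setK K (b - δ) lam) ≤ G (setK K a lam) := by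
        refine hG.mono _ _ ?_
        intro i
        by_cases hi : i ∈ K
        · simp only [setK, hi, if_true]; linarith
        · simp only [setK, hi, if_false]; exact le_refl _
      linarith
  have hself : ∀ i, i ∉ K → |lam i - lam i| ≤ δ := by
    intro i _
    simpa using hδ
  have u1 := hup lam h1 hself
  have u2 := hup lam' h2 h3
  have l1 := hlow lam h1 hself
  have l2 := hlow lam' h2 h3
  rw [abs_le]
  constructor <;> nlinarith

end Vale.Agent.P166
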