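import Mathlib

open MeasureTheory Matrix

namespace Vale.Agent.P166

noncomputable def spins (N : ℕ) : Finset (Fin N → ℝ) :=
  Fintype.piFinset (fun _ => ({-1, 1} : Finset ℝ))

def coupling {N : ℕ} (lam : Fin N → ℝ) (U : Matrix.orthogonalGroup (Fin N) ℝ) :
    Matrix (Fin N) (Fin N) ℝ :=
  (U : Matrix (Fin N) (Fin N) ℝ)ᵀ * Matrix.diagonal lam * (U : Matrix (Fin N) (Fin N) ℝ)

noncomputable def pressure {N : ℕ} (β : ℝ) (lam : Fin N → ℝ)
    (U : Matrix.orthogonalGroup (Fin N) ℝ) : ℝ :=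
  (1 / (N : ℝ)) * Real.log (((2 : ℝ) ^ N)⁻¹ *
    ∑ σ ∈ spins N, Real.exp (β / 2 * (σ ⬝ᵥ (coupling lam U *ᵥ σ))))

noncomputable def meanPressure {N : ℕ} [MeasurableSpace (Matrix.orthogonalGroup (Fin N) ℝ)]
    (μ : Measure (Matrix.orthogonalGroup (Fin N) ℝ)) (β : ℝ) (lam : Fin N → ℝ) : ℝ :=
  ∫ U, pressure β lam U ∂μ

noncomputable def empirical {n : ℕ} (lam : Fin (n + 1) → ℝ) : ProbabilityMeasure ℝ :=
  ⟨((n + 1 : ℕ) : ENNReal)⁻¹ • ∑ i, Measure.dirac (lam i), ⟨by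
    simp only [Measure.smul_apply, Measure.finsetSum_apply, measure_univ, Finset.sum_const,
      Finset.card_univ, Fintype.card_fin, smul_eq_mul, nsmul_eq_mul, mul_one]
    exact ENNReal.inv_mul_cancel (by simp) (by simp)⟩⟩

end Vale.Agent.P166
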