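import Mathlib

namespace Vale.Agent.P166

variable {ι : Type*} {N : ℕ}

noncomputable def en (β : ℝ) (y : ι → Fin N → ℝ) (lam : Fin N → ℝ) (s : ι) : ℝ :=
  β / 2 * ∑ i, lam i * y s i

noncomputable def Zf (S : Finset ι) (β : ℝ) (y : ι → Fin N → ℝ) (lam : Fin N → ℝ) : ℝ :=
  ∑ s ∈ S, Real.exp (en β y lam s)

lemma Zf_pos {S : Finset ι} (hS : S.Nonempty) (β : ℝ) (y : ι → Fin N → ℝ) (lam : Fin N → ℝ) :
    0 < Zf S β y lam :=
  Finset.sum_pos (fun _ _ => Real.exp_pos _) hS

lemma en_combo (β : ℝ) (y : ι → Fin N → ℝ) (lam lam' : Fin N → ℝ) (a b : ℝ) (s : ι) :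
    en β y (a • lam + b • lam') s = a * en β y lam s + b * en β y lam' s := by
  unfold en
  have h1 : ∑ i, (a • lam + b • lam') i * y s i =
      a * ∑ i, lam i * y s i + b * ∑ i, lam' i * y s i := by
    rw [Finset.mul_sum, Finset.mul_sum, ← Finset.sum_add_distrib]
    refine Finset.sum_congr rfl ?_
    intro i _
    simp only [Pi.add_apply, Pi.smul_apply, smul_eq_mul]
    ring
  rw [h1]
  ring

lemma logZ_convex {S : Finset ι} (hS : S.Nonempty) (β : ℝ) (y : ι → Fin N → ℝ)
    (lam lam' : Fin N → ℝ) (a b : ℝ) (ha : 0 ≤ a) (hb : 0 ≤ b) (hab : a + b = 1) :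
    Real.log (Zf S β y (a • lam + b • lam')) ≤
      a * Real.log (Zf S β y lam) + b * Real.log (Zf S β y lam') := by
  have h1 := Zf_pos hS β y lam
  have h2 := Zf_pos hS β y lam'
  have h3 := Zf_pos hS β y (a • lam + b • lam')
  set A := Real.log (Zf S β y lam) with hA
  set B := Real.log (Zf S β y lam') with hB
  have key : Zf S β y (a • lam + b • lam') * Real.exp (-(a * A + b * B)) ≤ 1 := by
    unfold Zf
    rw [Finset.sum_mul]
    calc ∑ s ∈ S, Real.exp (en β y (a • lam + b • lam') s) * Real.exp (-(a * A + b * B))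
        = ∑ s ∈ S, Real.exp (a * (en β y lam s - A) + b * (en β y lam' s - B)) := by
          refine Finset.sum_congr rfl ?_
          intro s _
          rw [← Real.exp_add, en_combo]
          congr 1
          ring
      _ ≤ ∑ s ∈ S, (a * Real.exp (en β y lam s - A) + b * Real.exp (en β y lam' s - B)) := by
          refine Finset.sum_le_sum ?_
          intro s _
          have := convexOn_exp.2 (Set.mem_univ (en β y lam s - A))
            (Set.mem_univ (en β y lam' s - B)) ha hb hab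
          simpa [smul_eq_mul] using this
      _ = a * (Zf S β y lam * Real.exp (-A)) + b * (Zf S β y lam' * Real.exp (-B)) := by
          unfold Zf
          rw [Finset.sum_add_distrib, Finset.sum_mul, Finset.sum_mul, Finset.mul_sum,
            Finset.mul_sum]
          congr 1
          · refine Finset.sum_congr rfl ?_
            intro s _
            rw [← Real.exp_add, sub_eq_add_neg]
          · refine Finset.sum_congr rfl ?_
            intro s _
            rw [← Real.exp_add, sub_eq_add_neg]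
      _ = 1 := by
          rw [hA, hB, Real.exp_neg, Real.exp_neg, Real.exp_log h1, Real.exp_log h2,
            mul_inv_cancel₀ h1.ne', mul_inv_cancel₀ h2.ne']
          linarith
  have h4 : Zf S β y (a • lam + b • lam') ≤ Real.exp (a * A + b * B) := by
    rw [Real.exp_neg] at key
    have hpos := Real.exp_pos (a * A + b * B)
    rwa [← div_eq_mul_inv, div_le_one hpos] at key
  calc Real.log (Zf S β y (a • lam + b • lam')) ≤ Real.log (Real.exp (a * A + b * B)) :=
        Real.log_le_log h3 h4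
    _ = a * A + b * B := Real.log_exp _

lemma logZ_mono {S : Finset ι} (hS : S.Nonempty) {β : ℝ} (hβ : 0 ≤ β) (y : ι → Fin N → ℝ)
    (hy : ∀ s ∈ S, ∀ i, 0 ≤ y s i) {lam lam' : Fin N → ℝ} (h : ∀ i, lam i ≤ lam' i) :
    Real.log (Zf S β y lam) ≤ Real.log (Zf S β y lam') := by
  refine Real.log_le_log (Zf_pos hS β y lam) ?_
  refine Finset.sum_le_sum ?_
  intro s hs
  refine Real.exp_le_exp.mpr ?_
  unfold en
  refine mul_le_mul_of_nonneg_left ?_ (by positivity)
  exact Finset.sum_le_sum (fun i _ => mul_le_mul_of_nonneg_right (h i) (hy s hs i))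

lemma logZ_shift {S : Finset ι} (hS : S.Nonempty) (β : ℝ) (y : ι → Fin N → ℝ) (T : ℝ)
    (hy : ∀ s ∈ S, ∑ i, y s i = T) (lam : Fin N → ℝ) (c : ℝ) :
    Real.log (Zf S β y (fun i => lam i + c)) = Real.log (Zf S β y lam) + β / 2 * c * T := by
  have : Zf S β y (fun i => lam i + c) = Zf S β y lam * Real.exp (β / 2 * c * T) := by
    unfold Zf
    rw [Finset.sum_mul]
    refine Finset.sum_congr rfl ?_
    intro s hs
    rw [← Real.exp_add]
    congr 1
    unfold en
    simp only [add_mul, Finset.sum_add_distrib, ← Finset.mul_sum, hy s hs]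
    ring
  rw [this, Real.log_mul (Zf_pos hS β y lam).ne' (Real.exp_pos _).ne', Real.log_exp]

lemma en_update (β : ℝ) (y : ι → Fin N → ℝ) (lam : Fin N → ℝ) (j : Fin N) (v : ℝ) (s : ι) :
    en β y (Function.update lam j v) s = en β y lam s + β / 2 * (v - lam j) * y s j := by
  unfold en
  have h1 : ∑ i, Function.update lam j v i * y s i =
      ∑ i, lam i * y s i + (v - lam j) * y s j := by
    have : ∀ i, Function.update lam j v i * y s i =
        lam i * y s i + (if i = j then (v - lam j) * y s j else 0) := by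
      intro i
      by_cases h : i = j
      · subst h
        simp
        ring
      · simp [h]
    simp only [this, Finset.sum_add_distrib, Finset.sum_ite_eq', Finset.mem_univ, if_true]
  rw [h1]
  ring

lemma exp_le_one_add {x c : ℝ} (hx : 0 ≤ x) (hxc : x ≤ c) :
    Real.exp x ≤ 1 + x * Real.exp c := by
  have h1 : 1 - x ≤ Real.exp (-x) := by
    have := Real.add_one_le_exp (-x)
    linarith
  have h2 : Real.exp x * (1 - x) ≤ 1 := by
    calc Real.exp x * (1 - x) ≤ Real.exp x * Real.exp (-x) :=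
          mul_le_mul_of_nonneg_left h1 (Real.exp_pos x).le
      _ = 1 := by rw [← Real.exp_add]; simp
  have h3 : x * Real.exp x ≤ x * Real.exp c :=
    mul_le_mul_of_nonneg_left (Real.exp_le_exp.mpr hxc) hx
  nlinarith

lemma y_le_T {S : Finset ι} (y : ι → Fin N → ℝ) (hy0 : ∀ s ∈ S, ∀ i, 0 ≤ y s i) (T : ℝ)
    (hyT : ∀ s ∈ S, ∑ i, y s i = T) (J : Finset (Fin N)) (s : ι) (hs : s ∈ S) :
    ∑ j ∈ J, y s j ≤ T := by
  rw [← hyT s hs]
  exact Finset.sum_le_sum_of_subset_of_nonneg (Finset.subset_univ J) (fun i _ _ => hy0 s hs i)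

lemma logZ_incr {S : Finset ι} (hS : S.Nonempty) {β : ℝ} (hβ : 0 ≤ β) (y : ι → Fin N → ℝ)
    (hy0 : ∀ s ∈ S, ∀ i, 0 ≤ y s i) (T : ℝ) (hyT : ∀ s ∈ S, ∑ i, y s i = T)
    (lam : Fin N → ℝ) {η : ℝ} (hη : 0 ≤ η) (j : Fin N) :
    Real.log (Zf S β y (Function.update lam j (lam j + η))) - Real.log (Zf S β y lam) ≤
      Real.exp (β / 2 * η * T) * (β / 2 * η) *
        ((∑ s ∈ S, Real.exp (en β y lam s) * y s j) / Zf S β y lam) := by
  have hZ := Zf_pos hS β y lam
  have hZ' := Zf_pos hS β y (Function.update lam j (lam j + η))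
  rw [← Real.log_div hZ'.ne' hZ.ne']
  refine le_trans (Real.log_le_sub_one_of_pos (div_pos hZ' hZ)) ?_
  rw [div_sub_one hZ.ne', ← mul_div_assoc]
  refine div_le_div_of_nonneg_right ?_ hZ.le
  unfold Zf
  rw [← Finset.sum_sub_distrib, Finset.mul_sum]
  refine Finset.sum_le_sum ?_
  intro s hs
  rw [en_update, Real.exp_add]
  have hx0 : 0 ≤ β / 2 * (lam j + η - lam j) * y s j := by
    have := hy0 s hs j
    have : lam j + η - lam j = η := by ring
    rw [this]
    positivity
  have hyj : y s j ≤ T := by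
    have := y_le_T y hy0 T hyT {j} s hs
    simpa using this
  have hxc : β / 2 * (lam j + η - lam j) * y s j ≤ β / 2 * η * T := by
    have : lam j + η - lam j = η := by ring
    rw [this]
    exact mul_le_mul_of_nonneg_left hyj (by positivity)
  have h1 := exp_le_one_add hx0 hxc
  have hE := Real.exp_pos (en β y lam s)
  have h2 : lam j + η - lam j = η := by ring
  rw [h2] at h1 ⊢
  nlinarith [mul_le_mul_of_nonneg_left h1 hE.le]

lemma logZ_incr_sum {S : Finset ι} (hS : S.Nonempty) {β : ℝ} (hβ : 0 ≤ β) (y : ι → Fin N → ℝ)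
    (hy0 : ∀ s ∈ S, ∀ i, 0 ≤ y s i) (T : ℝ) (hyT : ∀ s ∈ S, ∑ i, y s i = T)
    (lam : Fin N → ℝ) {η : ℝ} (hη : 0 ≤ η) (J : Finset (Fin N)) :
    ∑ j ∈ J, (Real.log (Zf S β y (Function.update lam j (lam j + η))) -
      Real.log (Zf S β y lam)) ≤ Real.exp (β / 2 * η * T) * (β / 2 * η) * T := by
  have hZ := Zf_pos hS β y lam
  refine le_trans (Finset.sum_le_sum (fun j _ => logZ_incr hS hβ y hy0 T hyT lam hη j)) ?_
  rw [← Finset.mul_sum]
  refine mul_le_mul_of_nonneg_left ?_ (by positivity)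
  rw [← Finset.sum_div, div_le_iff₀ hZ, Finset.sum_comm]
  unfold Zf
  rw [Finset.mul_sum]
  refine Finset.sum_le_sum ?_
  intro s hs
  rw [← Finset.mul_sum, mul_comm T]
  exact mul_le_mul_of_nonneg_left (y_le_T y hy0 T hyT J s hs) (Real.exp_pos _).le

end Vale.Agent.P166
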