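import Vale.Agent.P166.Basic
import Vale.Agent.P166.LogZ
import Vale.Agent.P166.Abstract

open MeasureTheory Matrix

namespace Vale.Agent.P166

variable {N : ℕ}

def yU (U : Matrix.orthogonalGroup (Fin N) ℝ) (σ : Fin N → ℝ) (i : Fin N) : ℝ :=
  (((U : Matrix (Fin N) (Fin N) ℝ) *ᵥ σ) i) ^ 2

lemma quad_eq (lam : Fin N → ℝ) (U : Matrix.orthogonalGroup (Fin N) ℝ) (σ : Fin N → ℝ) :
    σ ⬝ᵥ (coupling lam U *ᵥ σ) = ∑ i, lam i * yU U σ i := by
  unfold coupling yU
  rw [← Matrix.mulVec_mulVec, ← Matrix.mulVec_mulVec, Matrix.dotProduct_mulVec,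
    Matrix.vecMul_transpose]
  unfold dotProduct
  refine Finset.sum_congr rfl ?_
  intro i _
  rw [Matrix.mulVec_diagonal]
  ring

lemma yU_nonneg (U : Matrix.orthogonalGroup (Fin N) ℝ) (σ : Fin N → ℝ) (i : Fin N) :
    0 ≤ yU U σ i := sq_nonneg _

lemma mem_spins {σ : Fin N → ℝ} : σ ∈ spins N ↔ ∀ i, σ i = -1 ∨ σ i = 1 := by
  unfold spins
  simp [Fintype.mem_piFinset]

lemma yU_sum (U : Matrix.orthogonalGroup (Fin N) ℝ) {σ : Fin N → ℝ} (hσ : σ ∈ spins N) :
    ∑ i, yU U σ i = N := by
  have h1 : ∑ i, yU U σ i =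
      ((U : Matrix (Fin N) (Fin N) ℝ) *ᵥ σ) ⬝ᵥ ((U : Matrix (Fin N) (Fin N) ℝ) *ᵥ σ) := by
    unfold yU dotProduct
    exact Finset.sum_congr rfl (fun i _ => by ring)
  have hU : (U : Matrix (Fin N) (Fin N) ℝ)ᵀ * (U : Matrix (Fin N) (Fin N) ℝ) = 1 :=
    (Matrix.mem_orthogonalGroup_iff' (Fin N) ℝ).mp U.2
  rw [h1, Matrix.dotProduct_mulVec, Matrix.vecMul_mulVec, hU, Matrix.vecMul_one]
  unfold dotProduct
  rw [mem_spins] at hσ
  have : ∀ i, σ i * σ i = 1 := by
    intro i
    rcases hσ i with h | h <;> rw [h] <;> norm_num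
  simp [this]

lemma spins_nonempty : (spins N).Nonempty :=
  ⟨fun _ => 1, mem_spins.mpr (fun _ => Or.inr rfl)⟩

lemma pressure_eq (β : ℝ) (lam : Fin N → ℝ) (U : Matrix.orthogonalGroup (Fin N) ℝ) :
    pressure β lam U =
      (1 / (N : ℝ)) * (Real.log (Zf (spins N) β (yU U) lam) - N * Real.log 2) := by
  unfold pressure
  have h1 : ∑ σ ∈ spins N, Real.exp (β / 2 * (σ ⬝ᵥ (coupling lam U *ᵥ σ))) =
      Zf (spins N) β (yU U) lam := by
    unfold Zf en
    exact Finset.sum_congr rfl (fun σ _ => by rw [quad_eq])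
  rw [h1, Real.log_mul (by positivity) (Zf_pos spins_nonempty β _ lam).ne', Real.log_inv,
    Real.log_pow]
  ring

lemma pressure_conv (hN : 0 < N) (β : ℝ) (lam lam' : Fin N → ℝ) (a b : ℝ) (ha : 0 ≤ a)
    (hb : 0 ≤ b) (hab : a + b = 1) (U : Matrix.orthogonalGroup (Fin N) ℝ) :
    pressure β (a • lam + b • lam') U ≤ a * pressure β lam U + b * pressure β lam' U := by
  rw [pressure_eq, pressure_eq, pressure_eq]
  have h := logZ_convex spins_nonempty β (yU U) lam lam' a b ha hb hab
  have hN' : (0 : ℝ) < 1 / (N : ℝ) := by positivity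
  have e : a * (1 / (N : ℝ) * (Real.log (Zf (spins N) β (yU U) lam) - N * Real.log 2)) +
      b * (1 / (N : ℝ) * (Real.log (Zf (spins N) β (yU U) lam') - N * Real.log 2)) =
      1 / (N : ℝ) * ((a * Real.log (Zf (spins N) β (yU U) lam) +
        b * Real.log (Zf (spins N) β (yU U) lam')) - (a + b) * (N * Real.log 2)) := by ring
  rw [e, hab, one_mul]
  exact mul_le_mul_of_nonneg_left (by linarith) hN'.le

lemma pressure_mono {β : ℝ} (hβ : 0 ≤ β) {lam lam' : Fin N → ℝ} (h : ∀ i, lam i ≤ lam' i)
    (U : Matrix.orthogonalGroup (Fin N) ℝ) : pressure β lam U ≤ pressure β lam' U := by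
  rw [pressure_eq, pressure_eq]
  have h1 := logZ_mono spins_nonempty hβ (yU U) (fun s _ i => yU_nonneg U s i) h
  exact mul_le_mul_of_nonneg_left (by linarith) (by positivity)

lemma pressure_shift (hN : 0 < N) (β : ℝ) (lam : Fin N → ℝ) (t : ℝ)
    (U : Matrix.orthogonalGroup (Fin N) ℝ) :
    pressure β (fun i => lam i + t) U = pressure β lam U + β / 2 * t := by
  rw [pressure_eq, pressure_eq,
    logZ_shift spins_nonempty β (yU U) N (fun s hs => yU_sum U hs) lam t]
  have hN' : (N : ℝ) ≠ 0 := by positivity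
  field_simp
  ring

lemma pressure_incr_sum (hN : 0 < N) {β : ℝ} (hβ : 0 ≤ β) (lam : Fin N → ℝ) {η : ℝ}
    (hη : 0 ≤ η) (J : Finset (Fin N)) (U : Matrix.orthogonalGroup (Fin N) ℝ) :
    ∑ j ∈ J, (pressure β (Function.update lam j (lam j + η)) U - pressure β lam U) ≤
      β / 2 * η * Real.exp (β * N / 2 * η) := by
  have h := logZ_incr_sum spins_nonempty hβ (yU U) (fun s _ i => yU_nonneg U s i) N
    (fun s hs => yU_sum U hs) lam hη J
  have hN' : (0 : ℝ) < (N : ℝ) := by positivity
  have e : ∑ j ∈ J, (pressure β (Function.update lam j (lam j + η)) U - pressure β lam U) =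
      (1 / (N : ℝ)) * ∑ j ∈ J, (Real.log (Zf (spins N) β (yU U)
        (Function.update lam j (lam j + η))) - Real.log (Zf (spins N) β (yU U) lam)) := by
    rw [Finset.mul_sum]
    refine Finset.sum_congr rfl ?_
    intro j _
    rw [pressure_eq, pressure_eq]
    ring
  rw [e]
  calc (1 / (N : ℝ)) * ∑ j ∈ J, (Real.log (Zf (spins N) β (yU U)
        (Function.update lam j (lam j + η))) - Real.log (Zf (spins N) β (yU U) lam))
      ≤ (1 / (N : ℝ)) * (Real.exp (β / 2 * η * N) * (β / 2 * η) * N) :=
        mul_le_mul_of_nonneg_left h (by positivity)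
    _ = β / 2 * η * Real.exp (β * N / 2 * η) := by
        have : β / 2 * η * N = β * N / 2 * η := by ring
        rw [this]
        field_simp

lemma card_spins : (spins N).card = 2 ^ N := by
  unfold spins
  rw [Fintype.card_piFinset]
  have : ({-1, 1} : Finset ℝ).card = 2 := by
    rw [Finset.card_pair]
    norm_num
  simp [this]

lemma pressure_const (hN : 0 < N) (β : ℝ) (t : ℝ) (U : Matrix.orthogonalGroup (Fin N) ℝ) :
    pressure β (fun _ => t) U = β / 2 * t := by
  have h0 : pressure β (fun _ : Fin N => (0 : ℝ)) U = 0 := by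
    rw [pressure_eq]
    have : Zf (spins N) β (yU U) (fun _ => 0) = 2 ^ N := by
      unfold Zf en
      simp [card_spins]
    rw [this, Real.log_pow]
    ring
  have := pressure_shift hN β (fun _ => 0) t U
  simp only [zero_add] at this
  rw [this, h0, zero_add]

lemma continuous_pressure (β : ℝ) (lam : Fin N → ℝ) :
    Continuous (fun U : Matrix.orthogonalGroup (Fin N) ℝ => pressure β lam U) := by
  have h1 : ∀ σ : Fin N → ℝ, ∀ i : Fin N,
      Continuous (fun U : Matrix.orthogonalGroup (Fin N) ℝ => yU U σ i) := by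
    intro σ i
    unfold yU
    have : Continuous (fun U : Matrix.orthogonalGroup (Fin N) ℝ =>
        ((U : Matrix (Fin N) (Fin N) ℝ) *ᵥ σ)) :=
      Continuous.matrix_mulVec continuous_subtype_val continuous_const
    exact ((continuous_apply i).comp this).pow 2
  have h2 : Continuous (fun U : Matrix.orthogonalGroup (Fin N) ℝ =>
      Zf (spins N) β (yU U) lam) := by
    unfold Zf en
    refine continuous_finsetSum _ ?_
    intro σ _
    refine Real.continuous_exp.comp ?_
    refine continuous_const.mul ?_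
    refine continuous_finsetSum _ ?_
    intro i _
    exact continuous_const.mul (h1 σ i)
  simp only [pressure_eq]
  refine continuous_const.mul ?_
  refine Continuous.sub ?_ continuous_const
  exact Continuous.log h2 (fun U => (Zf_pos spins_nonempty β _ lam).ne')

def permO (π : Equiv.Perm (Fin N)) : Matrix.orthogonalGroup (Fin N) ℝ :=
  ⟨π.permMatrix ℝ, by
    rw [Matrix.mem_orthogonalGroup_iff', Matrix.transpose_permMatrix, ← Matrix.permMatrix_mul]
    simp⟩

lemma yU_perm (π : Equiv.Perm (Fin N)) (U : Matrix.orthogonalGroup (Fin N) ℝ) (σ : Fin N → ℝ)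
    (i : Fin N) : yU (permO π * U) σ i = yU U σ (π i) := by
  unfold yU
  have : ((permO π * U : Matrix.orthogonalGroup (Fin N) ℝ) : Matrix (Fin N) (Fin N) ℝ) =
      π.permMatrix ℝ * (U : Matrix (Fin N) (Fin N) ℝ) := rfl
  rw [this, ← Matrix.mulVec_mulVec, Matrix.permMatrix_mulVec]
  rfl

lemma pressure_perm (β : ℝ) (lam : Fin N → ℝ) (π : Equiv.Perm (Fin N))
    (U : Matrix.orthogonalGroup (Fin N) ℝ) :
    pressure β lam (permO π * U) = pressure β (lam ∘ π.symm) U := by
  rw [pressure_eq, pressure_eq]
  have : Zf (spins N) β (yU (permO π * U)) lam = Zf (spins N) β (yU U) (lam ∘ π.symm) := by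
    unfold Zf en
    refine Finset.sum_congr rfl ?_
    intro σ _
    congr 2
    simp only [yU_perm]
    refine Fintype.sum_equiv π _ _ ?_
    intro i
    simp
  rw [this]

section Mean

variable [MeasurableSpace (Matrix.orthogonalGroup (Fin N) ℝ)]
  [BorelSpace (Matrix.orthogonalGroup (Fin N) ℝ)]
  (μ : Measure (Matrix.orthogonalGroup (Fin N) ℝ)) [IsProbabilityMeasure μ]

lemma integrable_pressure (hN : 0 < N) {β : ℝ} (hβ : 0 ≤ β) (lam : Fin N → ℝ) :
    Integrable (fun U => pressure β lam U) μ := by
  refine Integrable.of_bound (continuous_pressure β lam).aestronglyMeasurable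
    (β / 2 * ∑ i, |lam i|) ?_
  refine Filter.Eventually.of_forall ?_
  intro U
  have hB : ∀ i, |lam i| ≤ ∑ i, |lam i| := fun i =>
    Finset.single_le_sum (f := fun i => |lam i|) (fun _ _ => abs_nonneg _) (Finset.mem_univ i)
  have h1 : pressure β lam U ≤ pressure β (fun _ => ∑ i, |lam i|) U :=
    pressure_mono hβ (fun i => le_trans (le_abs_self _) (hB i)) U
  have h2 : pressure β (fun _ => -∑ i, |lam i|) U ≤ pressure β lam U :=
    pressure_mono hβ (fun i => by
      have := neg_abs_le (lam i)
      have := hB i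
      linarith) U
  rw [pressure_const hN] at h1 h2
  rw [Real.norm_eq_abs, abs_le]
  constructor <;> linarith

theorem nice_meanPressure [μ.IsMulLeftInvariant] (hN : 0 < N) {β : ℝ} (hβ : 0 ≤ β) :
    Nice (meanPressure μ β) (β / 2) (β * N / 2) where
  conv lam lam' a b ha hb hab := by
    unfold meanPressure
    rw [← integral_const_mul, ← integral_const_mul,
      ← integral_add ((integrable_pressure μ hN hβ lam).const_mul a)
        ((integrable_pressure μ hN hβ lam').const_mul b)]
    refine integral_mono (integrable_pressure μ hN hβ _)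
      (((integrable_pressure μ hN hβ lam).const_mul a).add
        ((integrable_pressure μ hN hβ lam').const_mul b)) ?_
    intro U
    exact pressure_conv hN β lam lam' a b ha hb hab U
  symm lam i j := by
    unfold meanPressure
    have h := integral_mul_left_eq_self (μ := μ) (fun U => pressure β lam U)
      (permO (Equiv.swap i j))
    rw [← h]
    refine integral_congr_ae (Filter.Eventually.of_forall ?_)
    intro U
    show pressure β (lam ∘ Equiv.swap i j) U = pressure β lam (permO (Equiv.swap i j) * U)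
    rw [pressure_perm, Equiv.symm_swap]
  incr lam η hη J := by
    unfold meanPressure
    have h1 : ∑ j ∈ J, ((∫ U, pressure β (Function.update lam j (lam j + η)) U ∂μ) -
        ∫ U, pressure β lam U ∂μ) =
        ∫ U, ∑ j ∈ J, (pressure β (Function.update lam j (lam j + η)) U - pressure β lam U) ∂μ := by
      rw [integral_finsetSum]
      · refine Finset.sum_congr rfl ?_
        intro j _
        rw [integral_sub (integrable_pressure μ hN hβ _) (integrable_pressure μ hN hβ _)]
      · intro j _
        exact (integrable_pressure μ hN hβ _).sub (integrable_pressure μ hN hβ _)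
    rw [h1]
    have h2 : β / 2 * η * Real.exp (β * N / 2 * η) =
        ∫ _U : Matrix.orthogonalGroup (Fin N) ℝ, β / 2 * η * Real.exp (β * N / 2 * η) ∂μ := by
      simp
    rw [h2]
    refine integral_mono ?_ (integrable_const _) ?_
    · refine integrable_finsetSum _ ?_
      intro j _
      exact (integrable_pressure μ hN hβ _).sub (integrable_pressure μ hN hβ _)
    · intro U
      exact pressure_incr_sum hN hβ lam hη J U
  mono lam lam' h := by
    unfold meanPressure
    exact integral_mono (integrable_pressure μ hN hβ _) (integrable_pressure μ hN hβ _)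
      (fun U => pressure_mono hβ h U)
  shift lam t := by
    unfold meanPressure
    simp only [pressure_shift hN]
    rw [integral_add (integrable_pressure μ hN hβ _) (integrable_const _)]
    simp

end Mean

end Vale.Agent.P166
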