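import Vale.Agent.P166.Basic

open MeasureTheory Filter Topology

namespace Vale.Agent.P166

noncomputable def cnt {N : ℕ} (x : Fin N → ℝ) (t : ℝ) : ℕ :=
  (Finset.univ.filter (fun i => x i ≤ t)).card

lemma empirical_Iic {n : ℕ} (lam : Fin (n + 1) → ℝ) (t : ℝ) :
    ((empirical lam : Measure ℝ) (Set.Iic t)).toReal = (cnt lam t : ℝ) / ((n : ℝ) + 1) := by
  have h1 : (empirical lam : Measure ℝ) (Set.Iic t) =
      ((n + 1 : ℕ) : ENNReal)⁻¹ * (cnt lam t : ENNReal) := by
    show (((n + 1 : ℕ) : ENNReal)⁻¹ • ∑ i, Measure.dirac (lam i)) (Set.Iic t) = _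
    simp only [Measure.smul_apply, Measure.finsetSum_apply, smul_eq_mul]
    congr 1
    unfold cnt
    rw [Finset.card_filter]
    push_cast
    refine Finset.sum_congr rfl ?_
    intro i _
    rw [Measure.dirac_apply' _ measurableSet_Iic]
    by_cases h : lam i ≤ t
    · simp [h]
    · simp [h]
  rw [h1, ENNReal.toReal_mul, ENNReal.toReal_inv]
  simp only [ENNReal.toReal_natCast]
  push_cast
  ring

lemma cdf_tendsto {ν : ProbabilityMeasure ℝ} {lam : ∀ n : ℕ, Fin (n + 1) → ℝ}
    (h : Tendsto (fun n => empirical (lam n)) atTop (𝓝 ν)) {t : ℝ}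
    (ht : (ν : Measure ℝ) {t} = 0) :
    Tendsto (fun n : ℕ => (cnt (lam n) t : ℝ) / ((n : ℝ) + 1)) atTop
      (𝓝 ((ν : Measure ℝ) (Set.Iic t)).toReal) := by
  have h1 := ProbabilityMeasure.tendsto_measure_of_null_frontier_of_tendsto' h
    (E := Set.Iic t) (by rw [frontier_Iic]; exact ht)
  have h2 := (ENNReal.tendsto_toReal (measure_ne_top (ν : Measure ℝ) (Set.Iic t))).comp h1
  refine h2.congr ?_
  intro n
  exact empirical_Iic (lam n) t

lemma exists_null_point (ν : Measure ℝ) [SFinite ν] {u v : ℝ} (huv : u < v) :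
    ∃ t ∈ Set.Ioo u v, ν {t} = 0 := by
  have key : Set.Countable {t : ℝ | 0 < ν {t}} := by
    have := Measure.countable_meas_pos_of_disjoint_iUnion (μ := ν) (As := fun t : ℝ => ({t} : Set ℝ))
      (fun t => measurableSet_singleton t)
      (fun s t hst => Set.disjoint_singleton.mpr hst)
    exact this
  have aux := measure_sdiff_null (s := Set.Ioo u v) (Set.Countable.measure_zero key volume)
  have len_pos : 0 < ENNReal.ofReal (v - u) := by simp only [huv, ENNReal.ofReal_pos, sub_pos]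
  rw [← Real.volume_Ioo, ← aux] at len_pos
  obtain ⟨t, ht⟩ := nonempty_of_measure_ne_zero len_pos.ne'
  refine ⟨t, ht.1, ?_⟩
  have := ht.2
  simpa using this

end Vale.Agent.P166
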