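import Vale.Agent.P166.Universal

open MeasureTheory Filter Topology

namespace Vale.Agent.P166

theorem pointwise_sandwich {N : ℕ} (hN : 0 < N) {β : ℝ} (hβ : 0 ≤ β)
    (K : Finset (Fin N)) {a b δ : ℝ} (lam lam' : Fin N → ℝ)
    (h1 : ∀ i, a ≤ lam i ∧ lam i ≤ b) (h2 : ∀ i, a ≤ lam' i ∧ lam' i ≤ b) (hδ : 0 ≤ δ)
    (h3 : ∀ i, i ∉ K → |lam i - lam' i| ≤ δ) (U : Matrix.orthogonalGroup (Fin N) ℝ) :
    |pressure β lam U - pressure β lam' U| ≤
      pressure β (setK K (b - δ) lam) U - pressure β (setK K a lam) U + β / 2 * (3 * δ) := by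
  have hup : ∀ x : Fin N → ℝ, (∀ i, a ≤ x i ∧ x i ≤ b) → (∀ i, i ∉ K → |lam i - x i| ≤ δ) →
      pressure β x U ≤ pressure β (setK K (b - δ) lam) U + β / 2 * (2 * δ) := by
    intro x hx1 hx2
    rw [← pressure_shift hN]
    refine pressure_mono hβ ?_ U
    intro i
    by_cases hi : i ∈ K
    · simp only [setK, hi, if_true]
      have := (hx1 i).2
      linarith
    · simp only [setK, hi, if_false]
      have := abs_le.mp (hx2 i hi)
      linarith [this.1]
  have hlow : ∀ x : Fin N → ℝ, (∀ i, a ≤ x i ∧ x i ≤ b) → (∀ i, i ∉ K → |lam i - x i| ≤ δ) →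
      pressure β (setK K a lam) U - β / 2 * δ ≤ pressure β x U := by
    intro x hx1 hx2
    have : pressure β (setK K a lam) U - β / 2 * δ =
        pressure β (fun i => setK K a lam i + (-δ)) U := by
      rw [pressure_shift hN]; ring
    rw [this]
    refine pressure_mono hβ ?_ U
    intro i
    by_cases hi : i ∈ K
    · simp only [setK, hi, if_true]
      have := (hx1 i).1
      linarith
    · simp only [setK, hi, if_false]
      have := abs_le.mp (hx2 i hi)
      linarith [this.2]
  have hself : ∀ i, i ∉ K → |lam i - lam i| ≤ δ := by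
    intro i _
    simpa using hδ
  have u1 := hup lam h1 hself
  have u2 := hup lam' h2 h3
  have l1 := hlow lam h1 hself
  have l2 := hlow lam' h2 h3
  rw [abs_le]
  constructor <;> linarith

theorem finite_stability_L1 {N : ℕ} [MeasurableSpace (Matrix.orthogonalGroup (Fin N) ℝ)]
    [BorelSpace (Matrix.orthogonalGroup (Fin N) ℝ)]
    (μ : Measure (Matrix.orthogonalGroup (Fin N) ℝ)) [IsProbabilityMeasure μ]
    [μ.IsMulLeftInvariant] (hN : 0 < N) {β : ℝ} (hβ : 0 ≤ β)
    (K M : Finset (Fin N)) (hKM : Disjoint K M)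
    {a b δ : ℝ} (hab : a ≤ b) (hδ : 0 ≤ δ) (lam lam' : Fin N → ℝ)
    (h1 : ∀ i, a ≤ lam i ∧ lam i ≤ b) (h2 : ∀ i, a ≤ lam' i ∧ lam' i ≤ b)
    (h3 : ∀ i, i ∉ K → |lam i - lam' i| ≤ δ) (h4 : ∀ j ∈ M, b - δ ≤ lam j) :
    ∫ U, |pressure β lam U - pressure β lam' U| ∂μ ≤
      β / 2 * (3 * δ + (b - a) * (K.card : ℝ) / ((M.card : ℝ) + 1)) := by
  have hG := nice_meanPressure μ hN hβ
  have hint : ∀ x : Fin N → ℝ, Integrable (fun U => pressure β x U) μ :=
    fun x => integrable_pressure μ hN hβ x
  have hstep : ∫ U, |pressure β lam U - pressure β lam' U| ∂μ ≤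
      ∫ U, (pressure β (setK K (b - δ) lam) U - pressure β (setK K a lam) U +
        β / 2 * (3 * δ)) ∂μ := by
    refine integral_mono ((hint lam).sub (hint lam')).abs
      (((hint _).sub (hint _)).add (integrable_const _)) ?_
    intro U
    exact pointwise_sandwich hN hβ K lam lam' h1 h2 hδ h3 U
  refine le_trans hstep ?_
  have hsplit : ∫ U, (pressure β (setK K (b - δ) lam) U - pressure β (setK K a lam) U +
      β / 2 * (3 * δ)) ∂μ =
      meanPressure μ β (setK K (b - δ) lam) - meanPressure μ β (setK K a lam) +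
        β / 2 * (3 * δ) := by
    have e1 := integral_add (μ := μ)
      (f := fun U => pressure β (setK K (b - δ) lam) U - pressure β (setK K a lam) U)
      (g := fun _ => β / 2 * (3 * δ)) ((hint _).sub (hint _)) (integrable_const _)
    have e2 := integral_sub (μ := μ) (hint (setK K (b - δ) lam)) (hint (setK K a lam))
    rw [e1, e2]
    simp [meanPressure]
  rw [hsplit]
  have hmid : meanPressure μ β (setK K (b - δ) lam) - meanPressure μ β (setK K a lam) ≤
      β / 2 * ((b - a) * (K.card : ℝ) / ((M.card : ℝ) + 1)) := by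
    have hnn : 0 ≤ β / 2 * ((b - a) * (K.card : ℝ) / ((M.card : ℝ) + 1)) := by
      have : 0 ≤ b - a := by linarith
      positivity
    by_cases hcase : a ≤ b - δ
    · have := T2 hG M hcase K hKM lam h4
      refine le_trans this ?_
      have e1 : (K.card : ℝ) * (β / 2 * (b - δ - a) / ((M.card : ℝ) + 1)) =
          β / 2 * ((b - δ - a) * (K.card : ℝ) / ((M.card : ℝ) + 1)) := by ring
      rw [e1]
      refine mul_le_mul_of_nonneg_left ?_ (by positivity)
      gcongr
      linarith
    · push Not at hcase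
      have : meanPressure μ β (setK K (b - δ) lam) ≤ meanPressure μ β (setK K a lam) := by
        refine hG.mono _ _ ?_
        intro i
        by_cases hi : i ∈ K
        · simp only [setK, hi, if_true]; linarith
        · simp only [setK, hi, if_false]; exact le_refl _
      linarith
  linarith

end Vale.Agent.P166
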