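import Vale.Agent.P166.Empirical

namespace Vale.Agent.P166

variable {N : ℕ}

lemma nested (x x' : Fin N → ℝ) (hx : Monotone x) (hx' : Monotone x') (t : ℝ) :
    Finset.univ.filter (fun i => x i ≤ t) ⊆ Finset.univ.filter (fun i => x' i ≤ t) ∨
    Finset.univ.filter (fun i => x' i ≤ t) ⊆ Finset.univ.filter (fun i => x i ≤ t) := by
  by_cases h : Finset.univ.filter (fun i => x i ≤ t) ⊆ Finset.univ.filter (fun i => x' i ≤ t)
  · exact Or.inl h
  · right
    rw [Finset.not_subset] at h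
    obtain ⟨i, hi, hi'⟩ := h
    simp only [Finset.mem_filter, Finset.mem_univ, true_and, not_le] at hi hi'
    intro k hk
    simp only [Finset.mem_filter, Finset.mem_univ, true_and] at hk ⊢
    have hki : k ≤ i := by
      by_contra hcon
      push Not at hcon
      have := hx' hcon.le
      linarith
    exact le_trans (hx hki) hi

lemma card_sdiff_le (x x' : Fin N → ℝ) (hx : Monotone x) (hx' : Monotone x') (t : ℝ) :
    ((Finset.univ.filter (fun i => x i ≤ t ∧ t < x' i)).card : ℝ) ≤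
      |(cnt x t : ℝ) - (cnt x' t : ℝ)| := by
  have heq : Finset.univ.filter (fun i => x i ≤ t ∧ t < x' i) =
      Finset.univ.filter (fun i => x i ≤ t) \ Finset.univ.filter (fun i => x' i ≤ t) := by
    ext i
    simp
  rw [heq]
  rcases nested x x' hx hx' t with h | h
  · rw [Finset.sdiff_eq_empty_iff_subset.mpr h]
    simp
  · rw [Finset.card_sdiff_of_subset h, Nat.cast_sub (Finset.card_le_card h)]
    exact le_abs_self _

lemma grid_point {δ A z w : ℝ} (hδ : 0 < δ) (r : ℕ) (t : ℕ → ℝ)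
    (ht : ∀ l, A + l * (δ / 2) < t l ∧ t l < A + l * (δ / 2) + δ / 2)
    (hz : A ≤ z) (hz2 : z ≤ A + r * (δ / 2)) (hzw : z + δ < w) :
    ∃ l ∈ Finset.range (r + 1), z ≤ t l ∧ t l < w := by
  have hd : 0 < δ / 2 := by positivity
  refine ⟨⌈(z - A) / (δ / 2)⌉₊, ?_, ?_, ?_⟩
  · rw [Finset.mem_range, Nat.lt_succ_iff, Nat.ceil_le, div_le_iff₀ hd]
    linarith
  · have h1 := Nat.le_ceil ((z - A) / (δ / 2))
    rw [div_le_iff₀ hd] at h1
    have := (ht ⌈(z - A) / (δ / 2)⌉₊).1
    linarith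
  · have h1 := Nat.ceil_lt_add_one (div_nonneg (by linarith : 0 ≤ z - A) hd.le)
    have h2 : (⌈(z - A) / (δ / 2)⌉₊ : ℝ) * (δ / 2) < z - A + δ / 2 := by
      have := mul_lt_mul_of_pos_right h1 hd
      rw [add_mul, div_mul_cancel₀ _ hd.ne', one_mul] at this
      exact this
    have := (ht ⌈(z - A) / (δ / 2)⌉₊).2
    linarith

lemma bad_count (x x' : Fin N → ℝ) (hx : Monotone x) (hx' : Monotone x') {δ : ℝ} (hδ : 0 < δ)
    (A : ℝ) (r : ℕ) (t : ℕ → ℝ)
    (ht : ∀ l, A + l * (δ / 2) < t l ∧ t l < A + l * (δ / 2) + δ / 2)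
    (hr : ∀ i, A ≤ x i ∧ x i ≤ A + r * (δ / 2))
    (hr' : ∀ i, A ≤ x' i ∧ x' i ≤ A + r * (δ / 2)) :
    ((Finset.univ.filter (fun i => δ < |x i - x' i|)).card : ℝ) ≤
      2 * ∑ l ∈ Finset.range (r + 1), |(cnt x (t l) : ℝ) - (cnt x' (t l) : ℝ)| := by
  have hsub : Finset.univ.filter (fun i => δ < |x i - x' i|) ⊆
      (Finset.range (r + 1)).biUnion (fun l =>
        Finset.univ.filter (fun i => x i ≤ t l ∧ t l < x' i) ∪
        Finset.univ.filter (fun i => x' i ≤ t l ∧ t l < x i)) := by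
    intro i hi
    simp only [Finset.mem_filter, Finset.mem_univ, true_and] at hi
    rw [Finset.mem_biUnion]
    rcases lt_abs.mp hi with h | h
    · obtain ⟨l, hl, h1, h2⟩ := grid_point hδ r t ht (hr' i).1 (hr' i).2
        (by linarith : x' i + δ < x i)
      exact ⟨l, hl, Finset.mem_union_right _ (by simp [h1, h2])⟩
    · obtain ⟨l, hl, h1, h2⟩ := grid_point hδ r t ht (hr i).1 (hr i).2
        (by linarith : x i + δ < x' i)
      exact ⟨l, hl, Finset.mem_union_left _ (by simp [h1, h2])⟩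
  have h1 : (Finset.univ.filter (fun i => δ < |x i - x' i|)).card ≤
      ∑ l ∈ Finset.range (r + 1),
        ((Finset.univ.filter (fun i => x i ≤ t l ∧ t l < x' i)).card +
        (Finset.univ.filter (fun i => x' i ≤ t l ∧ t l < x i)).card) := by
    refine le_trans (Finset.card_le_card hsub) (le_trans Finset.card_biUnion_le ?_)
    exact Finset.sum_le_sum (fun l _ => Finset.card_union_le _ _)
  have h2 : ((Finset.univ.filter (fun i => δ < |x i - x' i|)).card : ℝ) ≤
      ∑ l ∈ Finset.range (r + 1),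
        (((Finset.univ.filter (fun i => x i ≤ t l ∧ t l < x' i)).card : ℝ) +
        ((Finset.univ.filter (fun i => x' i ≤ t l ∧ t l < x i)).card : ℝ)) := by
    exact_mod_cast h1
  refine le_trans h2 ?_
  rw [Finset.mul_sum]
  refine Finset.sum_le_sum ?_
  intro l _
  have e1 := card_sdiff_le x x' hx hx' (t l)
  have e2 := card_sdiff_le x' x hx' hx (t l)
  rw [abs_sub_comm] at e2
  linarith

end Vale.Agent.P166
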