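import Vale.Agent.P166.L1

open MeasureTheory Filter Topology

namespace Vale.Agent.P166

theorem step_bound_L1 {n : ℕ} [MeasurableSpace (Matrix.orthogonalGroup (Fin (n + 1)) ℝ)]
    [BorelSpace (Matrix.orthogonalGroup (Fin (n + 1)) ℝ)]
    (μ : Measure (Matrix.orthogonalGroup (Fin (n + 1)) ℝ)) [IsProbabilityMeasure μ]
    [μ.IsMulLeftInvariant] {β : ℝ} (hβ : 0 ≤ β) (lam lam' : Fin (n + 1) → ℝ)
    {a b δ s η p : ℝ} (hab : a ≤ b) (hδ : 0 < δ) (r : ℕ) (t : ℕ → ℝ)
    (ht : ∀ l, a + l * (δ / 2) < t l ∧ t l < a + l * (δ / 2) + δ / 2)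
    (hbr : b ≤ a + r * (δ / 2))
    (h1 : ∀ i, a ≤ lam i ∧ lam i ≤ b) (h2 : ∀ i, a ≤ lam' i ∧ lam' i ≤ b)
    (hs : b - δ ≤ s) (hp : 0 < p) (hη : 0 ≤ η) (hηp : 2 * η ≤ p / 4)
    (hE2 : ∑ l ∈ Finset.range (r + 1), |(cnt lam (t l) : ℝ) - (cnt lam' (t l) : ℝ)| ≤
      η * ((n : ℝ) + 1))
    (hE3 : (cnt lam s : ℝ) ≤ (1 - p / 2) * ((n : ℝ) + 1)) :
    ∫ U, |pressure β (lam ∘ Tuple.sort lam) U - pressure β (lam' ∘ Tuple.sort lam') U| ∂μ ≤
      β / 2 * (3 * δ + (b - a) * (8 * η / p)) := by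
  set x := lam ∘ Tuple.sort lam with hx
  set x' := lam' ∘ Tuple.sort lam' with hx'
  have hmx : Monotone x := Tuple.monotone_sort lam
  have hmx' : Monotone x' := Tuple.monotone_sort lam'
  have hc : ∀ u, cnt x u = cnt lam u := fun u => cnt_perm lam _ u
  have hc' : ∀ u, cnt x' u = cnt lam' u := fun u => cnt_perm lam' _ u
  set K := Finset.univ.filter (fun i => δ < |x i - x' i|) with hK
  set M := Finset.univ.filter (fun j => b - δ ≤ x j) \ K with hM
  have hn : (0 : ℝ) < (n : ℝ) + 1 := by positivity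
  have hKcard : (K.card : ℝ) ≤ 2 * η * ((n : ℝ) + 1) := by
    have := bad_count x x' hmx hmx' hδ a r t ht
      (fun i => ⟨(h1 _).1, le_trans (h1 _).2 hbr⟩) (fun i => ⟨(h2 _).1, le_trans (h2 _).2 hbr⟩)
    simp only [hc, hc'] at this
    calc (K.card : ℝ) ≤ 2 * ∑ l ∈ Finset.range (r + 1),
          |(cnt lam (t l) : ℝ) - (cnt lam' (t l) : ℝ)| := this
      _ ≤ 2 * (η * ((n : ℝ) + 1)) := by linarith
      _ = 2 * η * ((n : ℝ) + 1) := by ring
  have hMcard : p / 4 * ((n : ℝ) + 1) ≤ (M.card : ℝ) := by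
    have e1 : (Finset.univ.filter (fun j => b - δ ≤ x j)).card - K.card ≤ M.card :=
      Finset.le_card_sdiff _ _
    have e2 : (Finset.univ.filter (fun j => ¬ x j ≤ s)).card ≤
        (Finset.univ.filter (fun j => b - δ ≤ x j)).card := by
      refine Finset.card_le_card ?_
      intro j hj
      simp only [Finset.mem_filter, Finset.mem_univ, true_and, not_le] at hj ⊢
      linarith
    have e3 : cnt x s + (Finset.univ.filter (fun j => ¬ x j ≤ s)).card = n + 1 := by
      unfold cnt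
      rw [Finset.card_filter_add_card_filter_not]
      simp
    have e4 : ((Finset.univ.filter (fun j => b - δ ≤ x j)).card : ℝ) - (K.card : ℝ) ≤
        (M.card : ℝ) := by
      have : (Finset.univ.filter (fun j => b - δ ≤ x j)).card ≤ M.card + K.card := by omega
      have h' : ((Finset.univ.filter (fun j => b - δ ≤ x j)).card : ℝ) ≤
          (M.card : ℝ) + (K.card : ℝ) := by exact_mod_cast this
      linarith
    have e5 : (cnt x s : ℝ) + ((Finset.univ.filter (fun j => ¬ x j ≤ s)).card : ℝ) =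
        (n : ℝ) + 1 := by exact_mod_cast e3
    have e6 : ((Finset.univ.filter (fun j => ¬ x j ≤ s)).card : ℝ) ≤
        ((Finset.univ.filter (fun j => b - δ ≤ x j)).card : ℝ) := by exact_mod_cast e2
    rw [hc] at e5
    nlinarith
  have hmain := finite_stability_L1 μ (Nat.succ_pos n) hβ K M
    (by rw [hM]; exact Finset.disjoint_sdiff) hab hδ.le x x'
    (fun i => h1 _) (fun i => h2 _)
    (by
      intro i hi
      rw [hK] at hi
      simpa using hi)
    (by
      intro j hj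
      rw [hM, Finset.mem_sdiff] at hj
      simpa using hj.1)
  refine le_trans hmain ?_
  refine mul_le_mul_of_nonneg_left ?_ (by positivity)
  have hba : 0 ≤ b - a := by linarith
  have hratio : (K.card : ℝ) / ((M.card : ℝ) + 1) ≤ 8 * η / p := by
    rw [div_le_div_iff₀ (by positivity) hp]
    have hM1 : p / 4 * ((n : ℝ) + 1) ≤ (M.card : ℝ) + 1 := by linarith
    calc (K.card : ℝ) * p ≤ 2 * η * ((n : ℝ) + 1) * p :=
          mul_le_mul_of_nonneg_right hKcard hp.le
      _ = 8 * η * (p / 4 * ((n : ℝ) + 1)) := by ring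
      _ ≤ 8 * η * ((M.card : ℝ) + 1) := mul_le_mul_of_nonneg_left hM1 (by positivity)
  have : (b - a) * (K.card : ℝ) / ((M.card : ℝ) + 1) ≤ (b - a) * (8 * η / p) := by
    rw [mul_div_assoc]
    exact mul_le_mul_of_nonneg_left hratio hba
  linarith

theorem universality_L1 (β : ℝ) (hβ : 0 ≤ β) (ν : ProbabilityMeasure ℝ)
    (hν : IsCompact (ν : Measure ℝ).support)
    (lam lam' : ∀ n : ℕ, Fin (n + 1) → ℝ)
    (hw : Tendsto (fun n => empirical (lam n)) atTop (𝓝 ν))
    (hw' : Tendsto (fun n => empirical (lam' n)) atTop (𝓝 ν))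
    (hmin : Tendsto (fun n => ⨅ i, lam n i) atTop (𝓝 (sInf (ν : Measure ℝ).support)))
    (hmax : Tendsto (fun n => ⨆ i, lam n i) atTop (𝓝 (sSup (ν : Measure ℝ).support)))
    (hmin' : Tendsto (fun n => ⨅ i, lam' n i) atTop (𝓝 (sInf (ν : Measure ℝ).support)))
    (hmax' : Tendsto (fun n => ⨆ i, lam' n i) atTop (𝓝 (sSup (ν : Measure ℝ).support)))
    [∀ n, MeasurableSpace (Matrix.orthogonalGroup (Fin (n + 1)) ℝ)]
    [∀ n, BorelSpace (Matrix.orthogonalGroup (Fin (n + 1)) ℝ)]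
    (haar : ∀ n, Measure (Matrix.orthogonalGroup (Fin (n + 1)) ℝ))
    [∀ n, IsProbabilityMeasure (haar n)] [∀ n, (haar n).IsMulLeftInvariant] :
    Tendsto (fun n => ∫ U, |pressure β (lam n ∘ Tuple.sort (lam n)) U -
      pressure β (lam' n ∘ Tuple.sort (lam' n)) U| ∂(haar n)) atTop (𝓝 0) := by
  refine asymptotic_core β hβ ν hν lam lam' hw hw' hmin hmax hmin' hmax' _ ?_
  intro n a b δ s η p hab hδ r t ht hbr h1 h2 hs hp hη hηp hE2 hE3
  rw [abs_of_nonneg (integral_nonneg (fun U => abs_nonneg _))]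
  exact step_bound_L1 (haar n) hβ (lam n) (lam' n) hab hδ r t ht hbr h1 h2 hs hp hη hηp hE2 hE3

lemma measure_dev_perm {N : ℕ} [MeasurableSpace (Matrix.orthogonalGroup (Fin N) ℝ)]
    [BorelSpace (Matrix.orthogonalGroup (Fin N) ℝ)]
    (μ : Measure (Matrix.orthogonalGroup (Fin N) ℝ)) [μ.IsMulLeftInvariant]
    (β : ℝ) (lam : Fin N → ℝ) (π : Equiv.Perm (Fin N)) (c ε : ℝ) :
    μ {U | ε ≤ |pressure β (lam ∘ π) U - c|} = μ {U | ε ≤ |pressure β lam U - c|} := by
  have h := measure_preimage_mul μ (permO π.symm) {U | ε ≤ |pressure β lam U - c|}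
  rw [← h]
  congr 1
  ext U
  simp only [Set.mem_ofPred_eq, Set.mem_preimage]
  rw [pressure_perm, Equiv.symm_symm]

theorem transfer (β : ℝ) (hβ : 0 ≤ β) (ν : ProbabilityMeasure ℝ)
    (hν : IsCompact (ν : Measure ℝ).support)
    (lam lam' : ∀ n : ℕ, Fin (n + 1) → ℝ)
    (hw : Tendsto (fun n => empirical (lam n)) atTop (𝓝 ν))
    (hw' : Tendsto (fun n => empirical (lam' n)) atTop (𝓝 ν))
    (hmin : Tendsto (fun n => ⨅ i, lam n i) atTop (𝓝 (sInf (ν : Measure ℝ).support)))
    (hmax : Tendsto (fun n => ⨆ i, lam n i) atTop (𝓝 (sSup (ν : Measure ℝ).support)))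
    (hmin' : Tendsto (fun n => ⨅ i, lam' n i) atTop (𝓝 (sInf (ν : Measure ℝ).support)))
    (hmax' : Tendsto (fun n => ⨆ i, lam' n i) atTop (𝓝 (sSup (ν : Measure ℝ).support)))
    [∀ n, MeasurableSpace (Matrix.orthogonalGroup (Fin (n + 1)) ℝ)]
    [∀ n, BorelSpace (Matrix.orthogonalGroup (Fin (n + 1)) ℝ)]
    (haar : ∀ n, Measure (Matrix.orthogonalGroup (Fin (n + 1)) ℝ))
    [∀ n, IsProbabilityMeasure (haar n)] [∀ n, (haar n).IsMulLeftInvariant] (c : ℝ)
    (hc : ∀ ε : ℝ, 0 < ε →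
      Tendsto (fun n => haar n {U | ε ≤ |pressure β (lam n) U - c|}) atTop (𝓝 0)) :
    ∀ ε : ℝ, 0 < ε →
      Tendsto (fun n => haar n {U | ε ≤ |pressure β (lam' n) U - c|}) atTop (𝓝 0) := by
  intro ε hε
  have hL1 := universality_L1 β hβ ν hν lam lam' hw hw' hmin hmax hmin' hmax' haar
  have hA := hc (ε / 2) (by positivity)
  have hB : Tendsto (fun n => ENNReal.ofReal ((∫ U, |pressure β (lam n ∘ Tuple.sort (lam n)) U -
      pressure β (lam' n ∘ Tuple.sort (lam' n)) U| ∂(haar n)) / (ε / 2))) atTop (𝓝 0) := by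
    have h1 := hL1.div_const (ε / 2)
    rw [zero_div] at h1
    have h2 := ENNReal.tendsto_ofReal h1
    rwa [ENNReal.ofReal_zero] at h2
  have hAB := hA.add hB
  rw [add_zero] at hAB
  refine tendsto_of_tendsto_of_tendsto_of_le_of_le tendsto_const_nhds hAB
    (fun n => zero_le) ?_
  intro n
  show haar n {U | ε ≤ |pressure β (lam' n) U - c|} ≤
    haar n {U | ε / 2 ≤ |pressure β (lam n) U - c|} +
      ENNReal.ofReal ((∫ U, |pressure β (lam n ∘ Tuple.sort (lam n)) U -
        pressure β (lam' n ∘ Tuple.sort (lam' n)) U| ∂(haar n)) / (ε / 2))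
  rw [← measure_dev_perm (haar n) β (lam' n) (Tuple.sort (lam' n)) c ε,
    ← measure_dev_perm (haar n) β (lam n) (Tuple.sort (lam n)) c (ε / 2)]
  set x := lam n ∘ Tuple.sort (lam n) with hx
  set x' := lam' n ∘ Tuple.sort (lam' n) with hx'
  have hsub : {U | ε ≤ |pressure β x' U - c|} ⊆
      {U | ε / 2 ≤ |pressure β x U - c|} ∪ {U | ε / 2 ≤ |pressure β x U - pressure β x' U|} := by
    intro U hU
    simp only [Set.mem_ofPred_eq, Set.mem_union] at hU ⊢
    by_contra hcon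
    push Not at hcon
    have h3 : |pressure β x' U - c| ≤ |pressure β x U - c| + |pressure β x U - pressure β x' U| := by
      have : pressure β x' U - c = (pressure β x U - c) - (pressure β x U - pressure β x' U) := by
        ring
      rw [this]
      exact abs_sub _ _
    linarith [hcon.1, hcon.2]
  refine le_trans (measure_mono hsub) (le_trans (measure_union_le _ _) ?_)
  refine add_le_add le_rfl ?_
  have hint : Integrable (fun U => |pressure β x U - pressure β x' U|) (haar n) :=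
    ((integrable_pressure (haar n) (Nat.succ_pos n) hβ x).sub
      (integrable_pressure (haar n) (Nat.succ_pos n) hβ x')).abs
  have hmk := mul_meas_ge_le_integral_of_nonneg (μ := haar n)
    (f := fun U => |pressure β x U - pressure β x' U|)
    (Filter.Eventually.of_forall (fun U => abs_nonneg _)) hint (ε / 2)
  rw [← ofReal_measureReal]
  refine ENNReal.ofReal_le_ofReal ?_
  rw [le_div_iff₀ (by positivity)]
  linarith

end Vale.Agent.P166
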