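import Vale.Agent.P166.Concrete
import Vale.Agent.P166.Sorted

open MeasureTheory Filter Topology

namespace Vale.Agent.P166

lemma cnt_perm {N : ℕ} (x : Fin N → ℝ) (π : Equiv.Perm (Fin N)) (t : ℝ) :
    cnt (x ∘ π) t = cnt x t := by
  unfold cnt
  refine Finset.card_bij (fun i _ => π i) ?_ ?_ ?_
  · intro i hi
    simpa using hi
  · intro i _ j _ h
    exact π.injective h
  · intro j hj
    refine ⟨π.symm j, ?_, by simp⟩
    simpa using hj

lemma meanPressure_perm {N : ℕ} [MeasurableSpace (Matrix.orthogonalGroup (Fin N) ℝ)]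
    (μ : Measure (Matrix.orthogonalGroup (Fin N) ℝ)) [μ.IsMulLeftInvariant]
    [MeasurableMul (Matrix.orthogonalGroup (Fin N) ℝ)]
    (β : ℝ) (lam : Fin N → ℝ) (π : Equiv.Perm (Fin N)) :
    meanPressure μ β (lam ∘ π) = meanPressure μ β lam := by
  unfold meanPressure
  have h := integral_mul_left_eq_self (μ := μ) (fun U => pressure β lam U) (permO π.symm)
  rw [← h]
  refine integral_congr_ae (Filter.Eventually.of_forall ?_)
  intro U
  show pressure β (lam ∘ π) U = pressure β lam (permO π.symm * U)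
  rw [pressure_perm, Equiv.symm_symm]

theorem finite_stability {N : ℕ} [MeasurableSpace (Matrix.orthogonalGroup (Fin N) ℝ)]
    [BorelSpace (Matrix.orthogonalGroup (Fin N) ℝ)]
    (μ : Measure (Matrix.orthogonalGroup (Fin N) ℝ)) [IsProbabilityMeasure μ]
    [μ.IsMulLeftInvariant] (hN : 0 < N) {β : ℝ} (hβ : 0 ≤ β)
    (K M : Finset (Fin N)) (hKM : Disjoint K M)
    {a b δ : ℝ} (hab : a ≤ b) (hδ : 0 ≤ δ) (lam lam' : Fin N → ℝ)
    (h1 : ∀ i, a ≤ lam i ∧ lam i ≤ b) (h2 : ∀ i, a ≤ lam' i ∧ lam' i ≤ b)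
    (h3 : ∀ i, i ∉ K → |lam i - lam' i| ≤ δ) (h4 : ∀ j ∈ M, b - δ ≤ lam j) :
    |meanPressure μ β lam - meanPressure μ β lam'| ≤
      β / 2 * (3 * δ + (b - a) * (K.card : ℝ) / ((M.card : ℝ) + 1)) :=
  T3 (nice_meanPressure μ hN hβ) (by positivity) K M hKM hab hδ lam lam' h1 h2 h3 h4

theorem step_bound {n : ℕ} [MeasurableSpace (Matrix.orthogonalGroup (Fin (n + 1)) ℝ)]
    [BorelSpace (Matrix.orthogonalGroup (Fin (n + 1)) ℝ)]
    (μ : Measure (Matrix.orthogonalGroup (Fin (n + 1)) ℝ)) [IsProbabilityMeasure μ]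
    [μ.IsMulLeftInvariant] {β : ℝ} (hβ : 0 ≤ β) (lam lam' : Fin (n + 1) → ℝ)
    {a b δ s η p : ℝ} (hab : a ≤ b) (hδ : 0 < δ) (r : ℕ) (t : ℕ → ℝ)
    (ht : ∀ l, a + l * (δ / 2) < t l ∧ t l < a + l * (δ / 2) + δ / 2)
    (hbr : b ≤ a + r * (δ / 2))
    (h1 : ∀ i, a ≤ lam i ∧ lam i ≤ b) (h2 : ∀ i, a ≤ lam' i ∧ lam' i ≤ b)
    (hs : b - δ ≤ s) (hp : 0 < p) (hη : 0 ≤ η) (hηp : 2 * η ≤ p / 4)
    (hE2 : ∑ l ∈ Finset.range (r + 1), |(cnt lam (t l) : ℝ) - (cnt lam' (t l) : ℝ)| ≤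
      η * ((n : ℝ) + 1))
    (hE3 : (cnt lam s : ℝ) ≤ (1 - p / 2) * ((n : ℝ) + 1)) :
    |meanPressure μ β lam - meanPressure μ β lam'| ≤
      β / 2 * (3 * δ + (b - a) * (8 * η / p)) := by
  set x := lam ∘ Tuple.sort lam with hx
  set x' := lam' ∘ Tuple.sort lam' with hx'
  have hmx : Monotone x := Tuple.monotone_sort lam
  have hmx' : Monotone x' := Tuple.monotone_sort lam'
  have hG : meanPressure μ β lam = meanPressure μ β x := (meanPressure_perm μ β lam _).symm
  have hG' : meanPressure μ β lam' = meanPressure μ β x' := (meanPressure_perm μ β lam' _).symm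
  rw [hG, hG']
  have hc : ∀ u, cnt x u = cnt lam u := fun u => cnt_perm lam _ u
  have hc' : ∀ u, cnt x' u = cnt lam' u := fun u => cnt_perm lam' _ u
  set K := Finset.univ.filter (fun i => δ < |x i - x' i|) with hK
  set M := Finset.univ.filter (fun j => b - δ ≤ x j) \ K with hM
  have hn : (0 : ℝ) < (n : ℝ) + 1 := by positivity
  have hKcard : (K.card : ℝ) ≤ 2 * η * ((n : ℝ) + 1) := by
    have := bad_count x x' hmx hmx' hδ a r t ht
      (fun i => ⟨(h1 _).1, le_trans (h1 _).2 hbr⟩) (fun i => ⟨(h2 _).1, le_trans (h2 _).2 hbr⟩)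
    simp only [hc, hc'] at this
    calc (K.card : ℝ) ≤ 2 * ∑ l ∈ Finset.range (r + 1),
          |(cnt lam (t l) : ℝ) - (cnt lam' (t l) : ℝ)| := this
      _ ≤ 2 * (η * ((n : ℝ) + 1)) := by linarith
      _ = 2 * η * ((n : ℝ) + 1) := by ring
  have hMcard : p / 4 * ((n : ℝ) + 1) ≤ (M.card : ℝ) := by
    have e1 : (Finset.univ.filter (fun j => b - δ ≤ x j)).card - K.card ≤ M.card :=
      Finset.le_card_sdiff _ _
    have e2 : (Finset.univ.filter (fun j => ¬ x j ≤ s)).card ≤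
        (Finset.univ.filter (fun j => b - δ ≤ x j)).card := by
      refine Finset.card_le_card ?_
      intro j hj
      simp only [Finset.mem_filter, Finset.mem_univ, true_and, not_le] at hj ⊢
      linarith
    have e3 : cnt x s + (Finset.univ.filter (fun j => ¬ x j ≤ s)).card = n + 1 := by
      unfold cnt
      rw [Finset.card_filter_add_card_filter_not]
      simp
    have e4 : ((Finset.univ.filter (fun j => b - δ ≤ x j)).card : ℝ) - (K.card : ℝ) ≤
        (M.card : ℝ) := by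
      have : (Finset.univ.filter (fun j => b - δ ≤ x j)).card ≤ M.card + K.card := by omega
      have h' : ((Finset.univ.filter (fun j => b - δ ≤ x j)).card : ℝ) ≤
          (M.card : ℝ) + (K.card : ℝ) := by exact_mod_cast this
      linarith
    have e5 : (cnt x s : ℝ) + ((Finset.univ.filter (fun j => ¬ x j ≤ s)).card : ℝ) =
        (n : ℝ) + 1 := by exact_mod_cast e3
    have e6 : ((Finset.univ.filter (fun j => ¬ x j ≤ s)).card : ℝ) ≤
        ((Finset.univ.filter (fun j => b - δ ≤ x j)).card : ℝ) := by exact_mod_cast e2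
    rw [hc] at e5
    nlinarith
  have hmain := finite_stability μ (Nat.succ_pos n) hβ K M
    (by rw [hM]; exact Finset.disjoint_sdiff) hab hδ.le x x'
    (fun i => h1 _) (fun i => h2 _)
    (by
      intro i hi
      rw [hK] at hi
      simpa using hi)
    (by
      intro j hj
      rw [hM, Finset.mem_sdiff] at hj
      simpa using hj.1)
  refine le_trans hmain ?_
  refine mul_le_mul_of_nonneg_left ?_ (by positivity)
  have hba : 0 ≤ b - a := by linarith
  have hratio : (K.card : ℝ) / ((M.card : ℝ) + 1) ≤ 8 * η / p := by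
    rw [div_le_div_iff₀ (by positivity) hp]
    have hM1 : p / 4 * ((n : ℝ) + 1) ≤ (M.card : ℝ) + 1 := by linarith
    calc (K.card : ℝ) * p ≤ 2 * η * ((n : ℝ) + 1) * p :=
          mul_le_mul_of_nonneg_right hKcard hp.le
      _ = 8 * η * (p / 4 * ((n : ℝ) + 1)) := by ring
      _ ≤ 8 * η * ((M.card : ℝ) + 1) := mul_le_mul_of_nonneg_left hM1 (by positivity)
  have : (b - a) * (K.card : ℝ) / ((M.card : ℝ) + 1) ≤ (b - a) * (8 * η / p) := by
    rw [mul_div_assoc]
    exact mul_le_mul_of_nonneg_left hratio hba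
  linarith

lemma eventually_range {lam : ∀ n : ℕ, Fin (n + 1) → ℝ} {a0 b0 a b : ℝ}
    (hmin : Tendsto (fun n => ⨅ i, lam n i) atTop (𝓝 a0))
    (hmax : Tendsto (fun n => ⨆ i, lam n i) atTop (𝓝 b0)) (ha : a < a0) (hb : b0 < b) :
    ∀ᶠ n in atTop, ∀ i, a ≤ lam n i ∧ lam n i ≤ b := by
  filter_upwards [hmin.eventually (lt_mem_nhds ha), hmax.eventually (gt_mem_nhds hb)] with n h1 h2
  intro i
  constructor
  · exact le_trans h1.le (ciInf_le (Set.finite_range _).bddBelow i)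
  · exact le_trans (le_ciSup (Set.finite_range _).bddAbove i) h2.le

theorem asymptotic_core (β : ℝ) (hβ : 0 ≤ β) (ν : ProbabilityMeasure ℝ)
    (hν : IsCompact (ν : Measure ℝ).support)
    (lam lam' : ∀ n : ℕ, Fin (n + 1) → ℝ)
    (hw : Tendsto (fun n => empirical (lam n)) atTop (𝓝 ν))
    (hw' : Tendsto (fun n => empirical (lam' n)) atTop (𝓝 ν))
    (hmin : Tendsto (fun n => ⨅ i, lam n i) atTop (𝓝 (sInf (ν : Measure ℝ).support)))
    (hmax : Tendsto (fun n => ⨆ i, lam n i) atTop (𝓝 (sSup (ν : Measure ℝ).support)))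
    (hmin' : Tendsto (fun n => ⨅ i, lam' n i) atTop (𝓝 (sInf (ν : Measure ℝ).support)))
    (hmax' : Tendsto (fun n => ⨆ i, lam' n i) atTop (𝓝 (sSup (ν : Measure ℝ).support)))
    (D : ℕ → ℝ)
    (hD : ∀ (n : ℕ) (a b δ s η p : ℝ), a ≤ b → 0 < δ → ∀ (r : ℕ) (t : ℕ → ℝ),
      (∀ l, a + l * (δ / 2) < t l ∧ t l < a + l * (δ / 2) + δ / 2) →
      b ≤ a + r * (δ / 2) →
      (∀ i, a ≤ lam n i ∧ lam n i ≤ b) → (∀ i, a ≤ lam' n i ∧ lam' n i ≤ b) →
      b - δ ≤ s → 0 < p → 0 ≤ η → 2 * η ≤ p / 4 →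
      ∑ l ∈ Finset.range (r + 1), |(cnt (lam n) (t l) : ℝ) - (cnt (lam' n) (t l) : ℝ)| ≤
        η * ((n : ℝ) + 1) →
      (cnt (lam n) s : ℝ) ≤ (1 - p / 2) * ((n : ℝ) + 1) →
      |D n| ≤ β / 2 * (3 * δ + (b - a) * (8 * η / p))) :
    Tendsto D atTop (𝓝 0) := by
  rw [Metric.tendsto_nhds]
  intro ε hε
  set a0 := sInf (ν : Measure ℝ).support with ha0
  set b0 := sSup (ν : Measure ℝ).support with hb0
  have hne : (ν : Measure ℝ).support.Nonempty :=
    Measure.nonempty_support (IsProbabilityMeasure.ne_zero _)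
  have hb0mem : b0 ∈ (ν : Measure ℝ).support := hν.sSup_mem hne
  have ha0b0 : a0 ≤ b0 := csInf_le hν.bddBelow hb0mem
  set δ := ε / (2 * β + 1) with hδdef
  have hδ : 0 < δ := by positivity
  set a := a0 - 1 with ha
  set b := b0 + δ / 2 with hb
  have hab : a ≤ b := by rw [ha, hb]; linarith
  have hbapos : 0 < b - a := by rw [ha, hb]; linarith
  have hgrid := fun l : ℕ => exists_null_point (ν : Measure ℝ)
    (u := a + l * (δ / 2)) (v := a + l * (δ / 2) + δ / 2) (by linarith)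
  choose t ht ht0 using hgrid
  obtain ⟨s, hs, hs0⟩ := exists_null_point (ν : Measure ℝ) (u := b0 - δ / 2) (v := b0)
    (by linarith)
  set p := ((ν : Measure ℝ) (Set.Ioi s)).toReal with hp
  have hppos : 0 < p := by
    have h1 : 0 < (ν : Measure ℝ) (Set.Ioi s) :=
      (Measure.mem_support_iff_forall b0).mp hb0mem _ (Ioi_mem_nhds hs.2)
    exact ENNReal.toReal_pos h1.ne' (measure_ne_top _ _)
  have hIic : ((ν : Measure ℝ) (Set.Iic s)).toReal = 1 - p := by
    have h1 : (ν : Measure ℝ) (Set.Iic s) + (ν : Measure ℝ) (Set.Ioi s) = 1 := by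
      have := measure_add_measure_compl (μ := (ν : Measure ℝ)) (measurableSet_Iic (a := s))
      rw [Set.compl_Iic, measure_univ] at this
      exact this
    have h2 := congrArg ENNReal.toReal h1
    rw [ENNReal.toReal_add (measure_ne_top _ _) (measure_ne_top _ _), ENNReal.toReal_one] at h2
    linarith
  set η := min (p / 8) (p * δ / (8 * (b - a))) with hη
  have hηpos : 0 < η := by
    rw [hη]
    exact lt_min (by positivity) (by positivity)
  set r := ⌈(b - a) / (δ / 2)⌉₊ with hr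
  have hbr : b ≤ a + r * (δ / 2) := by
    have h1 := Nat.le_ceil ((b - a) / (δ / 2))
    rw [div_le_iff₀ (by positivity), ← hr] at h1
    linarith
  have hE2 : Tendsto (fun n : ℕ => ∑ l ∈ Finset.range (r + 1),
      |(cnt (lam n) (t l) : ℝ) / ((n : ℝ) + 1) - (cnt (lam' n) (t l) : ℝ) / ((n : ℝ) + 1)|)
      atTop (𝓝 0) := by
    have : (0 : ℝ) = ∑ l ∈ Finset.range (r + 1), (0 : ℝ) := by simp
    rw [this]
    refine tendsto_finsetSum _ ?_
    intro l _
    have h1 := (cdf_tendsto hw (ht0 l)).sub (cdf_tendsto hw' (ht0 l))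
    rw [sub_self] at h1
    have h2 := h1.abs
    rwa [abs_zero] at h2
  have hE3 := cdf_tendsto hw hs0
  rw [hIic] at hE3
  filter_upwards [eventually_range hmin hmax (by rw [ha]; linarith : a < a0)
      (by rw [hb]; linarith : b0 < b),
    eventually_range hmin' hmax' (by rw [ha]; linarith : a < a0) (by rw [hb]; linarith : b0 < b),
    hE2.eventually (gt_mem_nhds hηpos),
    hE3.eventually (gt_mem_nhds (by linarith : 1 - p < 1 - p / 2))] with n e1 e1' e2 e3
  have hn : (0 : ℝ) < (n : ℝ) + 1 := by positivity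
  have e2' : ∑ l ∈ Finset.range (r + 1),
      |(cnt (lam n) (t l) : ℝ) - (cnt (lam' n) (t l) : ℝ)| ≤ η * ((n : ℝ) + 1) := by
    have h1 : ∑ l ∈ Finset.range (r + 1),
        |(cnt (lam n) (t l) : ℝ) - (cnt (lam' n) (t l) : ℝ)| =
        (∑ l ∈ Finset.range (r + 1), |(cnt (lam n) (t l) : ℝ) / ((n : ℝ) + 1) -
          (cnt (lam' n) (t l) : ℝ) / ((n : ℝ) + 1)|) * ((n : ℝ) + 1) := by
      rw [Finset.sum_mul]
      refine Finset.sum_congr rfl ?_
      intro l _
      rw [← sub_div, abs_div, abs_of_pos hn, div_mul_cancel₀ _ hn.ne']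
    rw [h1]
    exact mul_le_mul_of_nonneg_right e2.le hn.le
  have e3' : (cnt (lam n) s : ℝ) ≤ (1 - p / 2) * ((n : ℝ) + 1) := by
    have := e3.le
    rwa [div_le_iff₀ hn] at this
  have hbound := hD n a b δ s η p hab hδ r t
    (fun l => ⟨(ht l).1, (ht l).2⟩) hbr e1 e1'
    (by rw [hb]; linarith [hs.1] : b - δ ≤ s) hppos hηpos.le
    (by
      have : η ≤ p / 8 := min_le_left _ _
      linarith) e2' e3'
  rw [Real.dist_eq, sub_zero]
  refine lt_of_le_of_lt hbound ?_
  have h8 : (b - a) * (8 * η / p) ≤ δ := by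
    have h1 : η ≤ p * δ / (8 * (b - a)) := min_le_right _ _
    rw [le_div_iff₀ (by positivity)] at h1
    rw [← mul_div_assoc, div_le_iff₀ hppos]
    nlinarith
  have h9 : β / 2 * (3 * δ + (b - a) * (8 * η / p)) ≤ β / 2 * (4 * δ) :=
    mul_le_mul_of_nonneg_left (by linarith) (by positivity)
  refine lt_of_le_of_lt h9 ?_
  rw [hδdef]
  have h10 : 0 < 2 * β + 1 := by positivity
  have : β / 2 * (4 * (ε / (2 * β + 1))) = ε * (2 * β / (2 * β + 1)) := by
    field_simp
    ring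
  rw [this]
  have h11 : 2 * β / (2 * β + 1) < 1 := by
    rw [div_lt_one h10]
    linarith
  nlinarith

theorem universality (β : ℝ) (hβ : 0 ≤ β) (ν : ProbabilityMeasure ℝ)
    (hν : IsCompact (ν : Measure ℝ).support)
    (lam lam' : ∀ n : ℕ, Fin (n + 1) → ℝ)
    (hw : Tendsto (fun n => empirical (lam n)) atTop (𝓝 ν))
    (hw' : Tendsto (fun n => empirical (lam' n)) atTop (𝓝 ν))
    (hmin : Tendsto (fun n => ⨅ i, lam n i) atTop (𝓝 (sInf (ν : Measure ℝ).support)))
    (hmax : Tendsto (fun n => ⨆ i, lam n i) atTop (𝓝 (sSup (ν : Measure ℝ).support)))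
    (hmin' : Tendsto (fun n => ⨅ i, lam' n i) atTop (𝓝 (sInf (ν : Measure ℝ).support)))
    (hmax' : Tendsto (fun n => ⨆ i, lam' n i) atTop (𝓝 (sSup (ν : Measure ℝ).support)))
    [∀ n, MeasurableSpace (Matrix.orthogonalGroup (Fin (n + 1)) ℝ)]
    [∀ n, BorelSpace (Matrix.orthogonalGroup (Fin (n + 1)) ℝ)]
    (haar : ∀ n, Measure (Matrix.orthogonalGroup (Fin (n + 1)) ℝ))
    [∀ n, IsProbabilityMeasure (haar n)] [∀ n, (haar n).IsMulLeftInvariant] :
    Tendsto (fun n => meanPressure (haar n) β (lam n) - meanPressure (haar n) β (lam' n))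
      atTop (𝓝 0) := by
  refine asymptotic_core β hβ ν hν lam lam' hw hw' hmin hmax hmin' hmax' _ ?_
  intro n a b δ s η p hab hδ r t ht hbr h1 h2 hs hp hη hηp hE2 hE3
  exact step_bound (haar n) hβ (lam n) (lam' n) hab hδ r t ht hbr h1 h2 hs hp hη hηp hE2 hE3

end Vale.Agent.P166
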